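import Vale.Agent.P240.Bdl.B1

set_option linter.all false

/-!
P240, Lemma T, module TOP: a nonzero rational chain of `𝒜ₚ(N ⊔ F)` of top length which is a cycle gives a `TopCycle`
over every field.
-/

namespace Vale.Agent.P240.R2.H939

open Finsupp Subgroup Vale.Agent.P240.K

universe u v

section
variable {𝕜 : Type v} [Field 𝕜] {α : Type u}

/-- A nonzero rational cycle gives a nonzero cycle over every field, in the same span. -/
theorem exists_cycle_of_rat {P : List α → Prop} {z : Ch ℚ α} (hz : z ∈ Sp ℚ P) (hb : bd z = 0)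
    (hne : z ≠ 0) : ∃ w : Ch 𝕜 α, w ∈ Sp 𝕜 P ∧ bd w = 0 ∧ w ≠ 0 := by
  classical
  -- clear denominators
  let m : ℤ := ∏ l ∈ z.support, ((z l).den : ℤ)
  have hm0 : m ≠ 0 := Finset.prod_ne_zero_iff.2 fun l _ => by exact_mod_cast (z l).den_nz
  have hint : ∀ l, ∃ k : ℤ, (m : ℚ) * z l = k := by
    intro l
    by_cases hl : l ∈ z.support
    · have h1 : ((z l).den : ℤ) ∣ m := Finset.dvd_prod_of_mem (fun l => ((z l).den : ℤ)) hl
      obtain ⟨t, ht⟩ := h1
      refine ⟨t * (z l).num, ?_⟩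
      rw [ht]
      push_cast
      have h2 : ((z l).den : ℚ) * z l = (z l).num := by
        rw [mul_comm]; exact Rat.mul_den_eq_num _
      calc ((z l).den : ℚ) * t * z l = t * (((z l).den : ℚ) * z l) := by ring
        _ = t * (z l).num := by rw [h2]
    · rw [Finsupp.notMem_support_iff] at hl
      exact ⟨0, by rw [hl]; simp⟩
  choose k hk using hint
  have hk0 : ∀ l, k l ≠ 0 → l ∈ z.support := by
    intro l hl
    rw [Finsupp.mem_support_iff]
    intro h0
    apply hl
    have := hk l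
    rw [h0, mul_zero] at this
    exact_mod_cast this.symm
  have hsne : z.support.Nonempty := Finsupp.support_nonempty_iff.2 hne
  -- divide by the gcd
  obtain ⟨g, hg, hg1⟩ := Finset.extract_gcd k hsne
  set d : ℤ := z.support.gcd k with hd
  have hd0 : d ≠ 0 := by
    intro h0
    obtain ⟨l, hl⟩ := hsne
    have h1 := hg l hl
    rw [h0, zero_mul] at h1
    have h2 := hk l
    rw [h1, Int.cast_zero] at h2
    rcases mul_eq_zero.1 h2 with h | h
    · exact hm0 (by exact_mod_cast h)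
    · exact (Finsupp.mem_support_iff.1 hl) h
  let g' : List α → ℤ := fun l => if l ∈ z.support then g l else 0
  have hg'0 : ∀ l, g' l ≠ 0 → l ∈ z.support := by
    intro l hl
    by_contra h
    exact hl (if_neg h)
  let zi : List α →₀ ℤ := Finsupp.onFinset z.support g' hg'0
  have hzi : (d : ℚ) • MR (Int.castAddHom ℚ) zi = (m : ℚ) • z := by
    ext l
    change (d : ℚ) * ((g' l : ℤ) : ℚ) = m * z l
    by_cases hl : l ∈ z.support
    · rw [hk, hg l hl]
      simp only [g', if_pos hl]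
      push_cast
      ring
    · rw [Finsupp.notMem_support_iff.1 hl]
      simp only [g', if_neg hl]
      simp
  have hbz : bdR ℤ zi = 0 := by
    have h0 : bd (MR (Int.castAddHom ℚ) zi) = 0 := by
      have h1 : (d : ℚ) • bd (MR (Int.castAddHom ℚ) zi) = 0 := by
        rw [← map_smul, hzi, map_smul, hb, smul_zero]
      exact (smul_eq_zero.1 h1).resolve_left (by exact_mod_cast hd0)
    ext l
    have h1 : MR (Int.castAddHom ℚ) (bdR ℤ zi) l = 0 := by
      rw [← bdR_MR, bdR_eq, h0]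
      rfl
    rw [MR_apply] at h1
    exact castZ_inj (h1.trans (map_zero _).symm)
  refine ⟨MR (Int.castAddHom 𝕜) zi, MR_supported _ ?_, ?_, ?_⟩
  · rw [Finsupp.mem_supported]
    intro l hl
    rw [Finset.mem_coe, Finsupp.mem_support_iff] at hl
    exact (mem_Sp.1 hz) l (hg'0 l hl)
  · rw [← bdR_eq, bdR_MR, hbz, map_zero]
  · intro h0
    obtain ⟨q, hq⟩ := CharP.exists 𝕜
    have h1 : (q : ℤ) ∣ z.support.gcd g := by
      refine Finset.dvd_gcd fun l hl => ?_
      have h2 : MR (Int.castAddHom 𝕜) zi l = 0 := by rw [h0]; rfl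
      have h3 : ((g' l : ℤ) : 𝕜) = 0 := h2
      simp only [g', if_pos hl] at h3
      exact (CharP.intCast_eq_zero_iff 𝕜 q _).1 h3
    rw [hg1] at h1
    have h2 : q ∣ 1 := by exact_mod_cast h1
    exact CharP.char_ne_one 𝕜 q (Nat.dvd_one.1 h2)

end

section
variable {G : Type u} [Group G] {p : ℕ}

/-- a strictly decreasing list of nontrivial subgroups of a group of order `p ^ k` -/
lemma len_le [hp : Fact p.Prime] [Finite G] (m : List (Subgroup G)) :
    st (ApS p G) m → ∀ (E : Subgroup G) (k : ℕ), Nat.card E = p ^ k → (∀ y ∈ m, y ≤ E) →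
      m.length ≤ k := by
  induction m with
  | nil => intro _ E k _ _; exact Nat.zero_le _
  | cons x m ih =>
    intro hm E k hE hle
    have hp2 := List.pairwise_cons.1 hm.1
    have hxS : x ∈ ApS p G := hm.2 x (by simp)
    have hxE : x ≤ E := hle x (by simp)
    have hm' : st (ApS p G) m := ⟨hp2.2, fun a ha => hm.2 a (by simp [ha])⟩
    obtain ⟨j, hjk, hj⟩ := (Nat.dvd_prime_pow hp.out).1 (hE ▸ Subgroup.card_dvd_of_le hxE)
    have hj0 : j ≠ 0 := by
      rintro rfl
      rw [pow_zero] at hj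
      exact hxS.1 (Subgroup.eq_bot_of_card_eq x hj)
    rcases m with _ | ⟨y, m⟩
    · simp only [List.length_cons, List.length_nil]
      omega
    · have hyx : y < x := hp2.1 y (by simp)
      obtain ⟨i, hij, hi⟩ := (Nat.dvd_prime_pow hp.out).1 (hj ▸ Subgroup.card_dvd_of_le hyx.le)
      have hne : i ≠ j := by
        rintro rfl
        apply hyx.ne
        exact Subgroup.eq_of_le_of_card_ge hyx.le (by rw [hi, hj])
      have h1 := ih hm' y i hi (fun a ha => by
        rcases List.mem_cons.1 ha with h | ha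
        · rw [h]
        · exact le_of_lt ((List.pairwise_cons.1 hp2.2).1 a ha))
      rw [List.length_cons]
      omega

/-- the order of a member of `ApS` is a power of `p` -/
lemma card_ApS [hp : Fact p.Prime] [Finite G] {x : Subgroup G} (hx : x ∈ ApS p G) :
    ∃ k, Nat.card x = p ^ k := by
  have h : IsPGroup p x := fun a => ⟨1, by
    rw [pow_one]
    exact Subtype.ext (hx.2.2 a a.2)⟩
  exact IsPGroup.iff_card.1 h

/-- `|N ⊔ F|` divides `|N| |F|` if `F` normalizes `N`. -/
lemma card_sup_dvd [Finite G] {N F : Subgroup G} (hn : ∀ x ∈ F, ∀ y ∈ N, x * y * x⁻¹ ∈ N) :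
    Nat.card (N ⊔ F : Subgroup G) ∣ Nat.card N * Nat.card F := by
  have hle : F ≤ normalizer (N : Set G) := by
    intro x hx
    rw [Subgroup.mem_normalizer_iff]
    intro y
    constructor
    · exact fun hy => hn x hx y hy
    · intro hy
      have h := hn x⁻¹ (inv_mem hx) _ hy
      have e : x⁻¹ * (x * y * x⁻¹) * x⁻¹⁻¹ = y := by group
      rwa [e] at h
  rw [sup_comm]
  have hN := normal_subgroupOf_sup_of_le_normalizer hle
  set H : Subgroup G := F ⊔ N with hH
  have hsup : N.subgroupOf H ⊔ F.subgroupOf H = ⊤ := by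
    rw [← subgroupOf_sup (by rw [hH]; exact le_sup_right) (by rw [hH]; exact le_sup_left), sup_comm,
      ← hH, subgroupOf_self]
  have h1 : (N.subgroupOf H).index = (N.subgroupOf H).relIndex (F.subgroupOf H) := by
    rw [← relIndex_top_right, ← hsup, relIndex_sup_left]
  have h2 : Nat.card (N.subgroupOf H) = Nat.card N :=
    Nat.card_congr (Subgroup.subgroupOfEquivOfLe (by rw [hH]; exact le_sup_right)).toEquiv
  have h3 : Nat.card (F.subgroupOf H) = Nat.card F :=
    Nat.card_congr (Subgroup.subgroupOfEquivOfLe (by rw [hH]; exact le_sup_left)).toEquiv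
  rw [← card_mul_index (N.subgroupOf H), h1, h2, ← h3]
  exact mul_dvd_mul_left _ (relIndex_dvd_card _ _)

/-- two subgroups of order `p ^ r` of `H` are conjugate in `H` if `p ^ (r + 1)` does not divide `|H|` -/
lemma conj_of_card [hp : Fact p.Prime] [Finite G] {H x F : Subgroup G} (hx : x ≤ H) (hF : F ≤ H) {r : ℕ}
    (hxr : Nat.card x = p ^ r) (hFr : Nat.card F = p ^ r) (hH : ¬ p ^ (r + 1) ∣ Nat.card H) :
    ∃ g ∈ H, x.map (MulAut.conj g).toMonoidHom = F := by
  have hfac : (Nat.card H).factorization p = r := by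
    have h0 : Nat.card H ≠ 0 := Nat.card_pos.ne'
    have h1 : r ≤ (Nat.card H).factorization p :=
      (hp.out.pow_dvd_iff_le_factorization h0).1 (hxr ▸ Subgroup.card_dvd_of_le hx)
    have h2 : ¬ r + 1 ≤ (Nat.card H).factorization p := fun h =>
      hH ((hp.out.pow_dvd_iff_le_factorization h0).2 h)
    omega
  have e : ∀ {E : Subgroup G}, E ≤ H → Nat.card (E.subgroupOf H) = Nat.card E := fun hE =>
    Nat.card_congr (Subgroup.subgroupOfEquivOfLe hE).toEquiv
  let P : Sylow p H := Sylow.ofCard (x.subgroupOf H) (by rw [e hx, hxr, hfac])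
  let Q : Sylow p H := Sylow.ofCard (F.subgroupOf H) (by rw [e hF, hFr, hfac])
  obtain ⟨g, hg⟩ := MulAction.exists_smul_eq H P Q
  refine ⟨g, g.2, ?_⟩
  have hsub : x.map (MulAut.conj (g : G)).toMonoidHom ≤ F := by
    rintro _ ⟨a, ha, rfl⟩
    have h1 : (⟨a, hx ha⟩ : H) ∈ (P : Subgroup H) := by
      change (⟨a, hx ha⟩ : H) ∈ x.subgroupOf H
      exact Subgroup.mem_subgroupOf.2 ha
    have h2 : g * (⟨a, hx ha⟩ : H) * g⁻¹ ∈ (Q : Subgroup H) := by
      rw [← hg, Sylow.coe_subgroup_smul]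
      exact ⟨_, h1, rfl⟩
    have h3 : g * (⟨a, hx ha⟩ : H) * g⁻¹ ∈ F.subgroupOf H := h2
    exact Subgroup.mem_subgroupOf.1 h3
  refine Subgroup.eq_of_le_of_card_ge hsub ?_
  rw [Subgroup.card_map_of_injective (MulAut.conj (g : G)).injective, hxr, hFr]

variable {𝕜 : Type v} [Field 𝕜]

/-- **Module TOP.** -/
theorem topCycle_of_rat [hp : Fact p.Prime] [Finite G] {N F : Subgroup G} {r : ℕ}
    (hF : F ∈ ApB p G) (hN : ¬ p ∣ Nat.card N) (hn : ∀ x ∈ F, ∀ y ∈ N, x * y * x⁻¹ ∈ N)
    (hr : Nat.card F = p ^ r) {z : Ch ℚ (Subgroup G)}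
    (hz : z ∈ Sp ℚ (fun l => st (Ain p (N ⊔ F)) l ∧ l.length = r)) (hb : bd z = 0) (hne : z ≠ 0) :
    ∃ (α : Ch 𝕜 (Subgroup G)) (φ : List (Subgroup G)), TopCycle 𝕜 p (N ⊔ F) F α φ := by
  obtain ⟨w, hw, hbw, hwne⟩ := exists_cycle_of_rat (𝕜 := 𝕜) hz hb hne
  obtain ⟨l, hl⟩ := Finsupp.support_nonempty_iff.2 hwne
  obtain ⟨hlst, hlr⟩ := mem_Sp.1 hw l hl
  have hH : ¬ p ^ (r + 1) ∣ Nat.card (N ⊔ F : Subgroup G) := by
    intro h
    have h1 := h.trans (card_sup_dvd hn)
    rw [hr, pow_succ', mul_comm (Nat.card N)] at h1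
    rw [mul_comm p] at h1
    exact hN (Nat.dvd_of_mul_dvd_mul_left (pow_pos hp.out.pos r) h1)
  rcases l with _ | ⟨x, l'⟩
  · -- `r = 0`
    have hr0 : r = 0 := by rw [← hlr]; rfl
    subst hr0
    refine ⟨w, [], ?_, hbw, Finsupp.mem_support_iff.1 hl, Or.inl ⟨rfl, ?_⟩, hr⟩
    · exact hw
    · exact Subgroup.eq_bot_of_card_eq F (by rw [hr, pow_zero])
  · have hxA : x ∈ Ain p (N ⊔ F) := hlst.2 x (by simp)
    obtain ⟨k, hk⟩ := card_ApS hxA.1
    have h1 : (x :: l').length ≤ k := by
      refine len_le (x :: l') ⟨hlst.1, fun a ha => (hlst.2 a ha).1⟩ x k hk ?_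
      intro y hy
      rcases List.mem_cons.1 hy with h | h
      · rw [h]
      · exact le_of_lt ((List.pairwise_cons.1 hlst.1).1 y h)
    have h2 : k ≤ r := by
      by_contra h
      push Not at h
      exact hH ((pow_dvd_pow p (Nat.succ_le_of_lt h)).trans (hk ▸ Subgroup.card_dvd_of_le hxA.2))
    have hkr : k = r := by omega
    subst hkr
    obtain ⟨g, hg, hgx⟩ := conj_of_card hxA.2 le_sup_right hk hr hH
    set f : Subgroup G → Subgroup G := fun E => E.map (MulAut.conj g).toMonoidHom with hf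
    have hinj : Function.Injective f := Subgroup.map_injective (MulAut.conj g).injective
    have hlt : ∀ a b : Subgroup G, a > b → f a > f b := by
      intro a b hab
      exact lt_of_le_of_ne (Subgroup.map_mono hab.le) fun h => hab.ne (hinj h)
    have hmem : ∀ a ∈ Ain p (N ⊔ F), f a ∈ Ain p (N ⊔ F) := by
      rintro a ⟨⟨ha1, ha2, ha3⟩, ha4⟩
      refine ⟨⟨?_, ?_, ?_⟩, ?_⟩
      · intro h
        exact ha1 ((Subgroup.map_eq_bot_iff_of_injective _ (MulAut.conj g).injective).1 h)
      · rintro _ ⟨x, hx, rfl⟩ _ ⟨y, hy, rfl⟩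
        rw [← map_mul, ← map_mul, ha2 x hx y hy]
      · rintro _ ⟨x, hx, rfl⟩
        rw [← map_pow, ha3 x hx, map_one]
      · rintro _ ⟨x, hx, rfl⟩
        exact mul_mem (mul_mem hg (ha4 hx)) (inv_mem hg)
    refine ⟨mp f w, (x :: l').map f, ?_, ?_, ?_, Or.inr ⟨l'.map f, ?_⟩, ?_⟩
    · refine mp_mem (P := fun l => st (Ain p (N ⊔ F)) l ∧ l.length = k) ?_ hw
      rintro l ⟨hl1, hl2⟩
      refine ⟨⟨?_, ?_⟩, ?_⟩
      · rw [List.pairwise_map]
        exact hl1.1.imp fun {a b} h => hlt a b h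
      · intro a ha
        obtain ⟨b, hb, rfl⟩ := List.mem_map.1 ha
        exact hmem b (hl1.2 b hb)
      · rw [List.length_map, List.length_map, hl2, hlr]
    · rw [bd_mp, hbw, map_zero]
    · have h3 : mp f w ((x :: l').map f) = w (x :: l') := by
        rw [mp, Finsupp.lmapDomain_apply]
        exact Finsupp.mapDomain_apply (List.map_injective_iff.2 hinj) _ _
      rw [h3]
      exact Finsupp.mem_support_iff.1 hl
    · rw [List.map_cons]
      exact congrArg (· :: l'.map f) hgx
    · rw [List.length_map, hlr, hr]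

end

end Vale.Agent.P240.R2.H939
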