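import Vale.Agent.P240.R2.H121.Spec

set_option linter.all false

/-!
P240, Lemma T: `A` is elementary abelian for a system `Sys p A Ω`; a subgroup `B` of a hyperplane `H`, `B ≠ H`, is
contained in another hyperplane.
-/

namespace Vale.Agent.P240.LT.H939

open Vale.Agent.P240.LT

universe u v w

section
variable {A : Type u} [Group A] [Finite A] {p : ℕ}

lemma index_of_hyp (hp : p.Prime) {H : Subgroup A} (hH : Hyp p H) : H.index = p := by
  have h1 := H.card_mul_index
  have h2 : Nat.card H * H.index = Nat.card H * p := by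
    rw [h1, hH, mul_comm]
  exact Nat.eq_of_mul_eq_mul_left Nat.card_pos h2

/-- `A` is elementary abelian. -/
theorem elem_ab (hp : p.Prime) (hn : ∀ X : Subgroup A, X.Normal)
    (hg : ∀ K : Subgroup A, (∀ H, Hyp p H → K ≤ H) → K = ⊥) :
    (∀ x y : A, x * y = y * x) ∧ ∀ x : A, x ^ p = 1 := by
  constructor
  · intro x y
    have h1 : Subgroup.zpowers (x * y * x⁻¹ * y⁻¹) = ⊥ := by
      refine hg _ fun H hH => ?_
      rw [Subgroup.zpowers_le]
      have hN := hn H
      have hcard : Nat.card (A ⧸ H) = p := index_of_hyp hp hH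
      have : Fact p.Prime := ⟨hp⟩
      have hcyc : IsCyclic (A ⧸ H) := isCyclic_of_prime_card hcard
      have hc : ∀ a b : A ⧸ H, a * b = b * a := by
        intro a b
        let _ := hcyc.commGroup
        exact mul_comm a b
      rw [← QuotientGroup.eq_one_iff]
      rw [QuotientGroup.mk_mul, QuotientGroup.mk_mul, QuotientGroup.mk_mul, QuotientGroup.mk_inv,
        QuotientGroup.mk_inv, hc (x : A ⧸ H) y]
      group
    have h2 : x * y * x⁻¹ * y⁻¹ = 1 := Subgroup.zpowers_eq_bot.1 h1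
    have h3 : x * y = (x * y * x⁻¹ * y⁻¹) * (y * x) := by group
    rw [h3, h2, one_mul]
  · intro x
    have h1 : Subgroup.zpowers (x ^ p) = ⊥ := by
      refine hg _ fun H hH => ?_
      rw [Subgroup.zpowers_le]
      have hN := hn H
      have hcard : Nat.card (A ⧸ H) = p := index_of_hyp hp hH
      rw [← QuotientGroup.eq_one_iff]
      rw [QuotientGroup.mk_pow, ← hcard]
      exact pow_card_eq_one'
    exact Subgroup.zpowers_eq_bot.1 h1

/-- A hyperplane over `B` that avoids a given element outside `B`. -/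
theorem exists_hyp (hp : p.Prime) (hc : ∀ x y : A, x * y = y * x) (he : ∀ x : A, x ^ p = 1)
    {B : Subgroup A} {h : A} (hB : h ∉ B) : ∃ M, Hyp p M ∧ B ≤ M ∧ h ∉ M := by
  classical
  have hn : ∀ X : Subgroup A, X.Normal := fun X => ⟨fun a ha g => by
    rw [hc g a, mul_assoc, mul_inv_cancel, mul_one]
    exact ha⟩
  obtain ⟨M, hM⟩ := (Set.toFinite {M : Subgroup A | B ≤ M ∧ h ∉ M}).exists_maximal ⟨B, le_rfl, hB⟩
  obtain ⟨hBM, hhM⟩ := hM.prop
  refine ⟨M, ?_, hBM, hhM⟩
  have hMn := hn M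
  have htop : M ⊔ Subgroup.zpowers h = ⊤ := by
    rw [eq_top_iff]
    intro x _
    by_cases hx : x ∈ M
    · exact Subgroup.mem_sup_left hx
    have h1 : h ∈ M ⊔ Subgroup.zpowers x := by
      by_contra hcon
      have h2 := hM.le_of_ge (y := M ⊔ Subgroup.zpowers x) ⟨hBM.trans le_sup_left, hcon⟩ le_sup_left
      exact hx (h2 (Subgroup.mem_sup_right (Subgroup.mem_zpowers x)))
    rw [Subgroup.mem_sup_of_normal_left] at h1
    obtain ⟨m, hm, z, hz, hmz⟩ := h1
    obtain ⟨i, rfl⟩ := Subgroup.mem_zpowers_iff.1 hz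
    have hi : ¬ (p : ℤ) ∣ i := by
      rintro ⟨j, rfl⟩
      apply hhM
      rw [← hmz, zpow_mul, zpow_natCast, he, one_zpow, mul_one]
      exact hm
    have hco : IsCoprime i (p : ℤ) := by
      rw [Int.isCoprime_iff_gcd_eq_one]
      have h3 : IsCoprime (p : ℤ) i := (Nat.prime_iff_prime_int.1 hp).coprime_iff_not_dvd.2 hi
      exact Int.isCoprime_iff_gcd_eq_one.1 h3.symm
    obtain ⟨a, b, hab⟩ := hco
    have h4 : x = (x ^ i) ^ a := by
      have h5 : x ^ (1 : ℤ) = x ^ (a * i + b * p) := by rw [hab]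
      rw [zpow_one, zpow_add, mul_comm b, zpow_mul x p b, zpow_natCast, he, one_zpow, mul_one,
        mul_comm a, zpow_mul] at h5
      exact h5
    rw [h4]
    refine zpow_mem ?_ a
    have h6 : x ^ i = m⁻¹ * h := by rw [← hmz]; group
    rw [h6]
    exact mul_mem (Subgroup.mem_sup_left (inv_mem hm)) (Subgroup.mem_sup_right (Subgroup.mem_zpowers h))
  have hcardz : Nat.card (Subgroup.zpowers h) = p := by
    rw [Nat.card_zpowers]
    refine orderOf_eq_prime (hp := ⟨hp⟩) (he h) ?_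
    rintro rfl
    exact hhM (one_mem M)
  have h1 : M.index = M.relIndex (Subgroup.zpowers h) := by
    rw [← Subgroup.relIndex_top_right, ← htop, Subgroup.relIndex_sup_left]
  have h2 : M.index ∣ p := by
    rw [h1, ← hcardz]
    exact Subgroup.relIndex_dvd_card _ _
  have h3 : M.index ≠ 1 := by
    rw [ne_eq, Subgroup.index_eq_one]
    intro h4
    exact hhM (h4 ▸ Subgroup.mem_top h)
  have h4 : M.index = p := ((Nat.dvd_prime hp).1 h2).resolve_left h3
  rw [Hyp, ← Subgroup.card_mul_index M, h4, mul_comm]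

theorem exists_other (hp : p.Prime) (hc : ∀ x y : A, x * y = y * x) (he : ∀ x : A, x ^ p = 1)
    {B H : Subgroup A} (hBH : B ≤ H) (hne : Nat.card H ≠ Nat.card B) :
    ∃ H1, Hyp p H1 ∧ B ≤ H1 ∧ H ≠ H1 := by
  have h1 : ¬ H ≤ B := fun h => hne (by rw [le_antisymm h hBH])
  obtain ⟨h, hh, hhB⟩ := SetLike.not_le_iff_exists.1 h1
  obtain ⟨M, hM, hBM, hhM⟩ := exists_hyp hp hc he hhB
  exact ⟨M, hM, hBM, fun e => hhM (e ▸ hh)⟩

end

theorem hyp_inf {A : Type u} [Group A] [Finite A] {Ω : Type v} [Fintype Ω] {p : ℕ} (S : Sys p A Ω)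
    (K : Subgroup A) (hK : ∀ H, Hyp p H → K ≤ H) : K = ⊥ := by
  by_contra h
  obtain ⟨H, hH, h1, -⟩ := S.gen K h
  exact h1 (hK H hH)

end Vale.Agent.P240.LT.H939
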