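import Vale.Agent.P240.R2.H121.Spec

set_option linter.all false

/-!
P240, Lemma T, module (L3): if the relation of the hyperplane `H` permutes with the relations of all other hyperplanes
over `B`, then `dim D_H(B) ≤ 2 dim T(B)`.
-/

namespace Vale.Agent.P240.LT.H939

open Vale.Agent.P240.LT Module

universe u v w

section
variable {A : Type u} [Group A] [Finite A] {Ω : Type v} [Fintype Ω] {𝕜 : Type w} [Field 𝕜]
variable {p : ℕ} {r : Subgroup A → Setoid Ω}

/-! ### Finite dimension -/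

theorem finite_T (k : ℕ) : ∀ B : Subgroup A, Module.Finite 𝕜 (T 𝕜 p r k B) := by
  induction k with
  | zero =>
    intro B
    let f : T 𝕜 p r 0 B →ₗ[𝕜] (Ω → 𝕜) := (LinearMap.proj (R := 𝕜) (φ := fun _ => Ω → 𝕜) ([] : List (Subgroup A))).comp
      (T 𝕜 p r 0 B).subtype
    refine Module.Finite.of_injective f ?_
    intro a b hab
    apply Subtype.ext
    funext l
    by_cases hl : l = []
    · subst hl
      exact hab
    · rw [mem_T_zero.1 a.2 l hl, mem_T_zero.1 b.2 l hl]
  | succ k ih =>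
    intro B
    have hfin : ∀ X : par p B, Module.Finite 𝕜 (T 𝕜 p r k (X : Subgroup A)) := fun X => ih X
    let f : T 𝕜 p r (k + 1) B →ₗ[𝕜] ((X : par p B) → T 𝕜 p r k (X : Subgroup A)) :=
      { toFun := fun z X => ⟨fun l => (z : List (Subgroup A) → Ω → 𝕜) ((X : Subgroup A) :: l),
          (mem_T_succ.1 z.2).2.2.1 X X.2⟩
        map_add' := fun a b => rfl
        map_smul' := fun c a => rfl }
    refine Module.Finite.of_injective f ?_
    intro a b hab
    apply Subtype.ext
    funext l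
    rcases l with _ | ⟨X, l⟩
    · rw [(mem_T_succ.1 a.2).1, (mem_T_succ.1 b.2).1]
    · by_cases hX : X ∈ par p B
      · have h1 := congrFun hab ⟨X, hX⟩
        have h2 := congrArg (fun t : T 𝕜 p r k X => (t : List (Subgroup A) → Ω → 𝕜) l) h1
        exact h2
      · rw [(mem_T_succ.1 a.2).2.1 X hX l, (mem_T_succ.1 b.2).2.1 X hX l]

theorem finite_D (H : Subgroup A) (k : ℕ) (B : Subgroup A) :
    Module.Finite 𝕜 (D 𝕜 p r H k B) := by
  classical
  have hfin : ∀ X : par p B, Module.Finite 𝕜 (T 𝕜 p r k (X : Subgroup A)) := fun X => finite_T (𝕜 := 𝕜) (p := p) (r := r) k X.1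
  let f : D 𝕜 p r H k B →ₗ[𝕜] ((X : par p B) → T 𝕜 p r k (X : Subgroup A)) :=
    { toFun := fun z X => ⟨fun l => (z : List (Subgroup A) → Ω → 𝕜) ((X : Subgroup A) :: l), by
          by_cases hX : (X : Subgroup A) ≤ H
          · have h : (fun l => (z : List (Subgroup A) → Ω → 𝕜) ((X : Subgroup A) :: l)) = 0 := by
              funext l
              exact (mem_D.1 z.2).2.1 X (Or.inr hX) l
            rw [h]
            exact (T 𝕜 p r k (X : Subgroup A)).zero_mem
          · exact (mem_D.1 z.2).2.2 X X.2 hX⟩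
      map_add' := fun a b => rfl
      map_smul' := fun c a => rfl }
  refine Module.Finite.of_injective f ?_
  intro a b hab
  apply Subtype.ext
  funext l
  rcases l with _ | ⟨X, l⟩
  · rw [(mem_D.1 a.2).1, (mem_D.1 b.2).1]
  · by_cases hX : X ∈ par p B
    · have h1 := congrFun hab ⟨X, hX⟩
      have h2 := congrArg (fun t : T 𝕜 p r k X => (t : List (Subgroup A) → Ω → 𝕜) l) h1
      exact h2
    · rw [(mem_D.1 a.2).2.1 X (Or.inl hX) l, (mem_D.1 b.2).2.1 X (Or.inl hX) l]

/-! ### Class sums -/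

omit [Group A] [Finite A] in
lemma cs_inv (s : Setoid Ω) (f : Ω → 𝕜) {x y : Ω} (h : s x y) : cs s f x = cs s f y := by
  classical
  rw [cs_apply, cs_apply]
  refine Finset.sum_congr rfl fun t _ => ?_
  have e : s x t ↔ s y t := ⟨fun h' => s.trans (s.symm h) h', fun h' => s.trans h h'⟩
  by_cases h1 : s x t
  · rw [if_pos h1, if_pos (e.1 h1)]
  · rw [if_neg h1, if_neg fun h' => h1 (e.2 h')]

lemma one_sum (P : Ω → Prop) [DecidablePred P] [Decidable (∃ x, P x)]
    (h : ∀ x y, P x → P y → x = y) (c : 𝕜) :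
    ∑ x, (if P x then c else 0) = if ∃ x, P x then c else 0 := by
  by_cases h1 : ∃ x, P x
  · obtain ⟨x, hx⟩ := h1
    rw [if_pos ⟨x, hx⟩, Finset.sum_eq_single x, if_pos hx]
    · intro y _ hy
      exact if_neg fun h' => hy (h y x h' hx)
    · intro h'
      exact absurd (Finset.mem_univ x) h'
  · rw [if_neg h1]
    exact Finset.sum_eq_zero fun x _ => if_neg fun h' => h1 ⟨x, h'⟩

lemma cs_cs (s t : Setoid Ω) (f : Ω → 𝕜) (h0 : ∀ x y, s x y → t x y → x = y) [DecidableEq Ω]
    (w : Ω) : cs s (cs t f) w = ∑ y, (open Classical in if ∃ x, s w x ∧ t x y then f y else 0) := by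
  classical
  rw [cs_apply]
  have h1 : ∀ x, (if s w x then cs t f x else 0) = ∑ y, if s w x ∧ t x y then f y else 0 := by
    intro x
    by_cases hx : s w x
    · rw [if_pos hx, cs_apply]
      refine Finset.sum_congr rfl fun y _ => ?_
      by_cases hy : t x y
      · rw [if_pos hy, if_pos ⟨hx, hy⟩]
      · rw [if_neg hy, if_neg fun h => hy h.2]
    · rw [if_neg hx]
      exact (Finset.sum_eq_zero fun y _ => if_neg fun h => hx h.1).symm
  rw [Finset.sum_congr rfl fun x _ => h1 x, Finset.sum_comm]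
  refine Finset.sum_congr rfl fun y _ => ?_
  refine one_sum (fun x => s w x ∧ t x y) ?_ (f y)
  rintro a b ⟨ha1, ha2⟩ ⟨hb1, hb2⟩
  exact h0 a b (s.trans (s.symm ha1) hb1) (t.trans ha2 (t.symm hb2))

lemma cs_comm (s t : Setoid Ω) (f : Ω → 𝕜) (h0 : ∀ x y, s x y → t x y → x = y)
    (h1 : ∀ x y z, s x y → t y z → ∃ y', t x y' ∧ s y' z) : cs s (cs t f) = cs t (cs s f) := by
  classical
  funext w
  rw [cs_cs s t f h0, cs_cs t s f fun x y a b => h0 x y b a]
  refine Finset.sum_congr rfl fun y _ => ?_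
  have e : (∃ x, s w x ∧ t x y) ↔ ∃ x, t w x ∧ s x y := by
    constructor
    · rintro ⟨x, hx, hy⟩
      exact h1 w x y hx hy
    · rintro ⟨x, hx, hy⟩
      obtain ⟨x', h2, h3⟩ := h1 y x w (s.symm hy) (t.symm hx)
      exact ⟨x', s.symm h3, t.symm h2⟩
  by_cases h : ∃ x, s w x ∧ t x y
  · rw [if_pos h, if_pos (e.1 h)]
  · rw [if_neg h, if_neg fun h' => h (e.2 h')]

lemma cs_mul (s : Setoid Ω) (χ f : Ω → 𝕜) (hχ : ∀ x y, s x y → χ x = χ y) :
    cs s (χ * f) = χ * cs s f := by
  classical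
  funext w
  rw [Pi.mul_apply, cs_apply, cs_apply, Finset.mul_sum]
  refine Finset.sum_congr rfl fun x _ => ?_
  by_cases h : s w x
  · rw [if_pos h, if_pos h, Pi.mul_apply, hχ w x h]
  · rw [if_neg h, if_neg h, mul_zero]

/-! ### Operators on `T` -/

lemma card_par {B X : Subgroup A} {k : ℕ} (hk : Nat.card A = p ^ (k + 1) * Nat.card B)
    (hX : X ∈ par p B) : Nat.card A = p ^ k * Nat.card X := by
  rw [(mem_par.1 hX).2, hk, pow_succ]
  ring

theorem T_map (L : (Ω → 𝕜) →ₗ[𝕜] (Ω → 𝕜)) (k : ℕ) : ∀ (B : Subgroup A)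
    (_ : ∀ H', Hyp p H' → B ≤ H' → ∀ f, cs (r H') f = 0 → cs (r H') (L f) = 0)
    (_ : Nat.card A = p ^ k * Nat.card B) (z : List (Subgroup A) → Ω → 𝕜)
    (_ : z ∈ T 𝕜 p r k B), (fun l => L (z l)) ∈ T 𝕜 p r k B := by
  induction k with
  | zero =>
    intro B hL hk z hz
    rw [mem_T_zero] at hz ⊢
    intro l hl
    rw [hz l hl, map_zero]
  | succ k ih =>
    intro B hL hk z hz
    rw [mem_T_succ] at hz ⊢
    refine ⟨by rw [hz.1, map_zero], fun X hX l => by rw [hz.2.1 X hX l, map_zero], ?_, ?_, ?_⟩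
    · intro X hX
      refine ih X ?_ (card_par hk hX) (fun l => z (X :: l)) (hz.2.2.1 X hX)
      exact fun H' hH' hXH' => hL H' hH' ((mem_par.1 hX).1.trans hXH')
    · intro Z l
      rw [← map_sum, hz.2.2.2.1 Z l, map_zero]
    · intro hk0 X
      subst hk0
      refine hL B ?_ le_rfl _ (hz.2.2.2.2 rfl X)
      rw [Hyp, hk, zero_add, pow_one]

/-! ### The first step: `d` in the kernel of the class sums of `H` lifts -/

/-- the statement of `lift_of` -/
def Lift (𝕜 : Type w) [Field 𝕜] (p : ℕ) (r : Subgroup A → Setoid Ω) : Prop :=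
  ∀ (H H1 B : Subgroup A) (k : ℕ) (d : List (Subgroup A) → Ω → 𝕜), Hyp p H → Hyp p H1 → H ≠ H1 →
    B ≤ H → B ≤ H1 → Nat.card A = p ^ (k + 2) * Nat.card B → d ∈ D 𝕜 p r H (k + 1) B →
    (∀ Y ∈ par p B, Y ≤ H → ¬ Y ≤ H1 → ∃ z ∈ T 𝕜 p r (k + 1) Y, ∀ Z ∈ par p Y, ¬ Z ≤ H →
      ∀ l, z (Z :: l) = - ∑ X ∈ par p B, d (X :: Z :: l)) →
    ∃ z ∈ T 𝕜 p r (k + 2) B, ∀ X ∈ par p B, ¬ X ≤ H → ∀ l, z (X :: l) = d (X :: l)

/-- the class sums of `H`, on functions of lists -/
noncomputable def E (s : Setoid Ω) :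
    (List (Subgroup A) → Ω → 𝕜) →ₗ[𝕜] (List (Subgroup A) → Ω → 𝕜) where
  toFun d l := cs s (d l)
  map_add' a b := by
    funext l
    exact map_add (cs s) (a l) (b l)
  map_smul' c a := by
    funext l
    exact map_smul (cs s) c (a l)

lemma E_apply (s : Setoid Ω) (d : List (Subgroup A) → Ω → 𝕜) (l) : E s d l = cs s (d l) := rfl

theorem lift_ker (hL : Lift 𝕜 p r) (hp : p.Prime)
    (hex : ∀ B H : Subgroup A, Hyp p H → B ≤ H → Nat.card H ≠ Nat.card B →
      ∃ H1, Hyp p H1 ∧ B ≤ H1 ∧ H ≠ H1) {H : Subgroup A} (hH : Hyp p H) (k : ℕ) :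
    ∀ (B : Subgroup A) (_ : B ≤ H) (_ : Nat.card A = p ^ (k + 1) * Nat.card B)
      (d : List (Subgroup A) → Ω → 𝕜) (_ : d ∈ D 𝕜 p r H k B) (_ : E (r H) d = 0),
      ∃ z ∈ T 𝕜 p r (k + 1) B, ∀ X ∈ par p B, ¬ X ≤ H → ∀ l, z (X :: l) = d (X :: l) := by
  classical
  induction k with
  | zero =>
    intro B hBH hk d hd hE
    have hcard : Nat.card B = Nat.card H := by
      have h1 : p * Nat.card H = p ^ 1 * Nat.card B := by
        rw [← hk]
        exact hH.symm
      rw [pow_one] at h1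
      exact (Nat.eq_of_mul_eq_mul_left hp.pos h1).symm
    have hBH' : B = H := Subgroup.eq_of_le_of_card_ge hBH hcard.ge
    subst hBH'
    have hnot : ∀ X ∈ par p B, ¬ X ≤ B := by
      intro X hX hXB
      have h1 := Subgroup.card_le_of_le hXB
      have h2 := (mem_par.1 hX).2
      have h3 : 0 < Nat.card B := Nat.card_pos
      have h4 := hp.two_le
      nlinarith
    refine ⟨d, ?_, fun _ _ _ _ => rfl⟩
    rw [mem_T_succ]
    rw [mem_D] at hd
    refine ⟨hd.1, fun X hX l => hd.2.1 X (Or.inl hX) l, fun X hX => hd.2.2 X hX (hnot X hX), ?_, ?_⟩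
    · intro Z l
      refine Finset.sum_eq_zero fun X hX => ?_
      exact (mem_T_zero.1 (hd.2.2 X hX (hnot X hX))) (Z :: l) (by simp)
    · intro _ X
      have := congrFun hE [X]
      rw [E_apply] at this
      exact this
  | succ k ih =>
    intro B hBH hk d hd hE
    have hk' : Nat.card A = p ^ (k + 2) * Nat.card B := hk
    obtain ⟨H1, hH1, hBH1, hne⟩ := hex B H hH hBH (by
      intro h
      have h1 : p * Nat.card H = p ^ (k + 2) * Nat.card B := by
        rw [← hk']
        exact hH.symm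
      rw [h, pow_succ, mul_comm (p ^ (k + 1)) p, mul_assoc] at h1
      have h2 := Nat.eq_of_mul_eq_mul_left hp.pos h1
      have h3 : 0 < Nat.card B := Nat.card_pos
      have h4 : 1 < p ^ (k + 1) := Nat.one_lt_pow (by omega) hp.one_lt
      nlinarith)
    refine hL H H1 B k d hH hH1 hne hBH hBH1 hk' hd ?_
    intro Y hY hYH hYH1
    -- the coordinates of `y_Y(d)`
    let y : List (Subgroup A) → Ω → 𝕜 := fun l => match l with
      | [] => 0
      | Z :: l => if Z ∈ par p Y ∧ ¬ Z ≤ H then - ∑ X ∈ par p B, d (X :: Z :: l) else 0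
    have hyD : y ∈ D 𝕜 p r H k Y := by
      rw [mem_D]
      refine ⟨rfl, ?_, ?_⟩
      · rintro Z hZ l
        change (if Z ∈ par p Y ∧ ¬ Z ≤ H then - ∑ X ∈ par p B, d (X :: Z :: l) else 0) = 0
        rw [if_neg]
        rintro ⟨h1, h2⟩
        rcases hZ with h | h
        · exact h h1
        · exact h2 h
      · intro Z hZ hZH
        have e : (fun l => y (Z :: l)) = - ∑ X ∈ par p B, (fun l => d (X :: Z :: l)) := by
          funext l
          change (if Z ∈ par p Y ∧ ¬ Z ≤ H then - ∑ X ∈ par p B, d (X :: Z :: l) else 0) = _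
          rw [if_pos ⟨hZ, hZH⟩, Pi.neg_apply, Finset.sum_apply]
        rw [e]
        refine Submodule.neg_mem _ (Submodule.sum_mem _ fun X hX => ?_)
        by_cases hXH : X ≤ H
        · have e1 : (fun l => d (X :: Z :: l)) = 0 := by
            funext l
            exact (mem_D.1 hd).2.1 X (Or.inr hXH) (Z :: l)
          rw [e1]
          exact Submodule.zero_mem _
        · have h1 := mem_T_succ.1 ((mem_D.1 hd).2.2 X hX hXH)
          by_cases hZX : Z ∈ par p X
          · exact h1.2.2.1 Z hZX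
          · have e1 : (fun l => d (X :: Z :: l)) = 0 := by
              funext l
              exact h1.2.1 Z hZX l
            rw [e1]
            exact Submodule.zero_mem _
    have hyE : E (r H) y = 0 := by
      funext l
      rw [E_apply]
      rcases l with _ | ⟨Z, l⟩
      · exact map_zero _
      · change cs (r H) (if Z ∈ par p Y ∧ ¬ Z ≤ H then - ∑ X ∈ par p B, d (X :: Z :: l) else 0) = 0
        split
        · rw [map_neg, map_sum, neg_eq_zero]
          refine Finset.sum_eq_zero fun X _ => ?_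
          have := congrFun hE (X :: Z :: l)
          rw [E_apply] at this
          exact this
        · exact map_zero _
    obtain ⟨z, hz, hzy⟩ := ih Y hYH (card_par hk hY) y hyD hyE
    refine ⟨z, hz, fun Z hZ hZH l => ?_⟩
    rw [hzy Z hZ hZH l]
    exact if_pos ⟨hZ, hZH⟩

/-! ### The second step: the saturated set -/

/-- the relation generated by the relations of the hyperplanes over `X` -/
def gen (p : ℕ) (r : Subgroup A → Setoid Ω) (X : Subgroup A) : Ω → Ω → Prop :=
  Relation.ReflTransGen fun x y => ∃ H', Hyp p H' ∧ X ≤ H' ∧ r H' x y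

lemma gen_symm {X : Subgroup A} {x y : Ω} (h : gen p r X x y) : gen p r X y x := by
  induction h with
  | refl => exact Relation.ReflTransGen.refl
  | tail _ h2 ih =>
    obtain ⟨H', h3, h4, h5⟩ := h2
    exact Relation.ReflTransGen.head ⟨H', h3, h4, (r H').symm h5⟩ ih

lemma gen_le (hanti : ∀ X Y : Subgroup A, X ≤ Y → ∀ x y, r Y x y → r X x y) {X : Subgroup A}
    {x y : Ω} (h : gen p r X x y) : r X x y := by
  induction h with
  | refl => exact (r X).refl _
  | tail _ h2 ih =>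
    obtain ⟨H', h3, h4, h5⟩ := h2
    exact (r X).trans ih (hanti X H' h4 _ _ h5)

theorem exists_sat (hp : p.Prime) (htop : ∀ x y, r ⊤ x y → x = y)
    (hanti : ∀ X Y : Subgroup A, X ≤ Y → ∀ x y, r Y x y → r X x y)
    (hsup : ∀ (X Y : Subgroup A) (x y), r X x y → r Y x y → r (X ⊔ Y) x y)
    {H X : Subgroup A} (hXH : X ⊔ H = ⊤)
    (hact : ∀ x, ∃ y, y ≠ x ∧ r H x y)
    (hperm : ∀ H', Hyp p H' → X ≤ H' → ∀ x y z, r H x y → r H' y z →
      ∃ y', r H' x y' ∧ r H y' z) :
    ∃ Sat : Ω → Prop, (∀ H', Hyp p H' → X ≤ H' → ∀ x y, r H' x y → (Sat x ↔ Sat y)) ∧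
      (∀ x, ∃ y, r H x y ∧ Sat y) ∧ ∀ x, ∃ y, r H x y ∧ ¬ Sat y := by
  have hperm' : ∀ x y z, r H x y → gen p r X y z → ∃ y', gen p r X x y' ∧ r H y' z := by
    intro x y z hxy hyz
    induction hyz with
    | refl => exact ⟨x, Relation.ReflTransGen.refl, hxy⟩
    | tail _ h2 ih =>
      obtain ⟨y', h3, h4⟩ := ih
      obtain ⟨H', h5, h6, h7⟩ := h2
      obtain ⟨y'', h8, h9⟩ := hperm H' h5 h6 _ _ _ h4 h7
      exact ⟨y'', Relation.ReflTransGen.tail h3 ⟨H', h5, h6, h8⟩, h9⟩
  let R : Setoid Ω :=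
    { r := fun x y => ∃ m, gen p r X x m ∧ r H m y
      iseqv :=
        { refl := fun x => ⟨x, Relation.ReflTransGen.refl, (r H).refl x⟩
          symm := by
            rintro x y ⟨m, h1, h2⟩
            exact hperm' y m x ((r H).symm h2) (gen_symm h1)
          trans := by
            rintro x y z ⟨m, h1, h2⟩ ⟨m', h3, h4⟩
            obtain ⟨n, h5, h6⟩ := hperm' m y m' h2 h3
            exact ⟨n, Relation.ReflTransGen.trans h1 h5, (r H).trans h6 h4⟩ } }
  let rep : Ω → Ω := fun x => (Quotient.mk R x).out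
  have hrep : ∀ x, R (rep x) x := fun x => Quotient.mk_out (s := R) x
  have hrepe : ∀ x y, R x y → rep x = rep y := fun x y h => by
    change (Quotient.mk R x).out = (Quotient.mk R y).out
    rw [Quotient.sound h]
  have hgR : ∀ x y, gen p r X x y → R x y := fun x y h => ⟨y, h, (r H).refl y⟩
  have hHR : ∀ x y, r H x y → R x y := fun x y h => ⟨x, Relation.ReflTransGen.refl, h⟩
  have hb : ∀ x, ∃ y, r H x y ∧ gen p r X (rep y) y := by
    intro x
    obtain ⟨m, h1, h2⟩ := hrep x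
    refine ⟨m, (r H).symm h2, ?_⟩
    rw [hrepe m x (hHR m x h2)]
    exact h1
  refine ⟨fun x => gen p r X (rep x) x, ?_, hb, ?_⟩
  · intro H' hH' hXH' x y hxy
    have h1 : gen p r X x y := Relation.ReflTransGen.single ⟨H', hH', hXH', hxy⟩
    have h2 : rep x = rep y := hrepe x y (hgR x y h1)
    constructor
    · intro h
      change gen p r X (rep y) y
      rw [← h2]
      exact Relation.ReflTransGen.trans h h1
    · intro h
      change gen p r X (rep x) x
      rw [h2]
      exact Relation.ReflTransGen.trans h (gen_symm h1)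
  · intro x
    obtain ⟨m, h1, h2⟩ := hb x
    obtain ⟨y, h3, h4⟩ := hact m
    refine ⟨y, (r H).trans h1 h4, fun h5 => h3 ?_⟩
    have h6 : rep m = rep y := hrepe m y (hHR m y h4)
    have h7 : gen p r X m y := by
      refine Relation.ReflTransGen.trans (gen_symm h2) ?_
      rw [h6]
      exact h5
    have h8 := hsup X H m y (gen_le hanti h7) h4
    rw [hXH] at h8
    exact (htop m y h8).symm

/-! ### The invariant elements -/

/-- the elements of `D` that are constant on the classes of `H` -/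
noncomputable def I (𝕜 : Type w) [Field 𝕜] (p : ℕ) (r : Subgroup A → Setoid Ω) (H : Subgroup A)
    (k : ℕ) (B : Subgroup A) : Submodule 𝕜 (List (Subgroup A) → Ω → 𝕜) :=
  D 𝕜 p r H k B ⊓
    { carrier := {d | ∀ l x y, r H x y → d l x = d l y}
      add_mem' := fun {a b} ha hb l x y h => by
        rw [Pi.add_apply, Pi.add_apply, Pi.add_apply, ha l x y h, hb l x y h]
      zero_mem' := fun _ _ _ _ => rfl
      smul_mem' := fun c a ha l x y h => by
        rw [Pi.smul_apply, Pi.smul_apply, Pi.smul_apply, ha l x y h] }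

lemma mem_I {H : Subgroup A} {k : ℕ} {B : Subgroup A} {d : List (Subgroup A) → Ω → 𝕜} :
    d ∈ I 𝕜 p r H k B ↔ d ∈ D 𝕜 p r H k B ∧ ∀ l x y, r H x y → d l x = d l y := Iff.rfl

lemma sup_top (hp : p.Prime) {H X : Subgroup A} (hH : Hyp p H) (hX : ¬ X ≤ H) : X ⊔ H = ⊤ := by
  have h1 : Nat.card H ∣ Nat.card (X ⊔ H : Subgroup A) := Subgroup.card_dvd_of_le le_sup_right
  have h2 : Nat.card (X ⊔ H : Subgroup A) ∣ Nat.card A := Subgroup.card_subgroup_dvd_card _
  obtain ⟨c, hc⟩ := h1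
  obtain ⟨e, he⟩ := h2
  have h3 : 0 < Nat.card H := Nat.card_pos
  have h4 : c * e = p := by
    have : Nat.card H * (c * e) = Nat.card H * p := by
      rw [← mul_assoc, ← hc, ← he, hH, mul_comm]
    exact Nat.eq_of_mul_eq_mul_left h3 this
  have h5 : c = 1 ∨ c = p := (Nat.dvd_prime hp).1 ⟨e, h4.symm⟩
  rcases h5 with h5 | h5
  · exfalso
    apply hX
    have h6 : H = X ⊔ H := Subgroup.eq_of_le_of_card_ge le_sup_right (by rw [hc, h5, mul_one])
    exact le_sup_left.trans h6.ge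
  · apply Subgroup.eq_top_of_card_eq
    rw [hc, h5, hH, mul_comm]

end

theorem two_I {A : Type u} [Group A] [Finite A] {Ω : Type v} [Fintype Ω] {𝕜 : Type w} [Field 𝕜]
    {p : ℕ} (S : Sys p A Ω) (hp : p.Prime) {H B : Subgroup A} {k : ℕ} (hH : Hyp p H) (hBH : B ≤ H)
    (hk : Nat.card A = p ^ (k + 1) * Nat.card B) (hact : ∀ x, ∃ y, y ≠ x ∧ S.r H x y)
    (hperm : ∀ H', Hyp p H' → B ≤ H' → H' ≠ H → ∀ x y z, S.r H x y → S.r H' y z →
      ∃ y', S.r H' x y' ∧ S.r H y' z) :
    2 * finrank 𝕜 (I 𝕜 p S.r H k B) ≤ finrank 𝕜 (D 𝕜 p S.r H k B) := by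
  classical
  have hsat : ∀ X : Subgroup A, X ∈ par p B → ¬ X ≤ H → ∃ Sat : Ω → Prop,
      (∀ H', Hyp p H' → X ≤ H' → ∀ x y, S.r H' x y → (Sat x ↔ Sat y)) ∧
      (∀ x, ∃ y, S.r H x y ∧ Sat y) ∧ ∀ x, ∃ y, S.r H x y ∧ ¬ Sat y := by
    intro X hX hXH
    refine exists_sat hp S.top S.anti S.sup (sup_top hp hH hXH) hact ?_
    intro H' hH' hXH'
    refine hperm H' hH' ((mem_par.1 hX).1.trans hXH') ?_
    rintro rfl
    exact hXH hXH'
  choose! Sat hS1 hS2 hS3 using hsat
  let χ : List (Subgroup A) → Ω → 𝕜 := fun l x => match l with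
    | [] => 0
    | X :: _ => if Sat X x then 1 else 0
  have hmul : ∀ (χ' : List (Subgroup A) → Ω → 𝕜)
      (_ : ∀ X ∈ par p B, ¬ X ≤ H → ∀ l, χ' (X :: l) = χ' [X])
      (_ : ∀ X ∈ par p B, ¬ X ≤ H → ∀ H', Hyp p H' → X ≤ H' → ∀ x y, S.r H' x y →
        χ' [X] x = χ' [X] y)
      (d : List (Subgroup A) → Ω → 𝕜), d ∈ D 𝕜 p S.r H k B → χ' * d ∈ D 𝕜 p S.r H k B := by
    intro χ' h1 h2 d hd
    rw [mem_D] at hd ⊢
    refine ⟨?_, ?_, ?_⟩
    · rw [Pi.mul_apply, hd.1, mul_zero]
    · intro X hX l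
      rw [Pi.mul_apply, hd.2.1 X hX l, mul_zero]
    · intro X hX hXH
      have h3 := T_map (r := S.r) (LinearMap.mulLeft 𝕜 (χ' [X])) k X ?_ (card_par hk hX)
        (fun l => d (X :: l)) (hd.2.2 X hX hXH)
      · have e : (fun l => (χ' * d) (X :: l)) =
            fun l => (LinearMap.mulLeft 𝕜 (χ' [X])) (d (X :: l)) := by
          funext l
          rw [Pi.mul_apply, h1 X hX hXH l]
          rfl
        rw [e]
        exact h3
      · intro H' hH' hXH' f hf
        rw [LinearMap.mulLeft_apply, cs_mul _ _ _ (h2 X hX hXH H' hH' hXH'), hf, mul_zero]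
  have hχ : ∀ d ∈ D 𝕜 p S.r H k B, χ * d ∈ D 𝕜 p S.r H k B := by
    refine hmul χ (fun X _ _ l => rfl) ?_
    intro X hX hXH H' hH' hXH' x y hxy
    change (if Sat X x then (1 : 𝕜) else 0) = if Sat X y then 1 else 0
    have := hS1 X hX hXH H' hH' hXH' x y hxy
    by_cases h : Sat X x
    · rw [if_pos h, if_pos (this.1 h)]
    · rw [if_neg h, if_neg fun h' => h (this.2 h')]
  have hχ' : ∀ d ∈ D 𝕜 p S.r H k B, (1 - χ) * d ∈ D 𝕜 p S.r H k B := by
    intro d hd
    rw [sub_mul, one_mul]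
    exact Submodule.sub_mem _ hd (hχ d hd)
  have hfD : Module.Finite 𝕜 (D 𝕜 p S.r H k B) := finite_D H k B
  have hID : I 𝕜 p S.r H k B ≤ D 𝕜 p S.r H k B := inf_le_left
  have hfI : Module.Finite 𝕜 (I 𝕜 p S.r H k B) :=
    Module.Finite.of_injective (Submodule.inclusion hID) (Submodule.inclusion_injective hID)
  let Φ : (I 𝕜 p S.r H k B × I 𝕜 p S.r H k B) →ₗ[𝕜] D 𝕜 p S.r H k B :=
    { toFun := fun d => ⟨χ * (d.1 : List (Subgroup A) → Ω → 𝕜) +
          (1 - χ) * (d.2 : List (Subgroup A) → Ω → 𝕜),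
          Submodule.add_mem _ (hχ _ (hID d.1.2)) (hχ' _ (hID d.2.2))⟩
      map_add' := fun a b => by
        apply Subtype.ext
        simp only [Prod.fst_add, Prod.snd_add, Submodule.coe_add]
        ring
      map_smul' := fun c a => by
        apply Subtype.ext
        simp only [Prod.smul_fst, Prod.smul_snd, Submodule.coe_smul, RingHom.id_apply, smul_add,
          mul_smul_comm] }
  have hinj : Function.Injective Φ := by
    rw [← LinearMap.ker_eq_bot, LinearMap.ker_eq_bot']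
    rintro ⟨d1, d2⟩ h
    have h0 : χ * (d1 : List (Subgroup A) → Ω → 𝕜) +
        (1 - χ) * (d2 : List (Subgroup A) → Ω → 𝕜) = 0 := congrArg Subtype.val h
    have hval : ∀ X l x, (if Sat X x then (1 : 𝕜) else 0) *
        (d1 : List (Subgroup A) → Ω → 𝕜) (X :: l) x +
        (1 - (if Sat X x then (1 : 𝕜) else 0)) *
          (d2 : List (Subgroup A) → Ω → 𝕜) (X :: l) x = 0 := by
      intro X l x
      exact congrFun (congrFun h0 (X :: l)) x
    have hd1 := mem_I.1 d1.2
    have hd2 := mem_I.1 d2.2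
    have key1 : d1 = 0 := by
      apply Subtype.ext
      funext l x
      rcases l with _ | ⟨X, l⟩
      · rw [(mem_D.1 hd1.1).1]; rfl
      · by_cases hX : X ∈ par p B ∧ ¬ X ≤ H
        · obtain ⟨y, hxy, hy⟩ := hS2 X hX.1 hX.2 x
          rw [hd1.2 (X :: l) x y hxy]
          have := hval X l y
          rw [if_pos hy] at this
          simpa using this
        · have h3 : X ∉ par p B ∨ X ≤ H := by tauto
          rw [(mem_D.1 hd1.1).2.1 X h3 l]; rfl
    have key2 : d2 = 0 := by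
      apply Subtype.ext
      funext l x
      rcases l with _ | ⟨X, l⟩
      · rw [(mem_D.1 hd2.1).1]; rfl
      · by_cases hX : X ∈ par p B ∧ ¬ X ≤ H
        · obtain ⟨y, hxy, hy⟩ := hS3 X hX.1 hX.2 x
          rw [hd2.2 (X :: l) x y hxy]
          have := hval X l y
          rw [if_neg hy] at this
          simpa using this
        · have h3 : X ∉ par p B ∨ X ≤ H := by tauto
          rw [(mem_D.1 hd2.1).2.1 X h3 l]; rfl
    rw [key1, key2]
    rfl
  have h1 := LinearMap.finrank_le_finrank_of_injective hinj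
  rw [Module.finrank_prod] at h1
  omega

/-- **(L3)**, from the lifting statement. -/
theorem comm_case_of_lift {A : Type u} [Group A] [Finite A] {Ω : Type v} [Fintype Ω] {𝕜 : Type w}
    [Field 𝕜] {p : ℕ} (S : Sys p A Ω) (hL : Lift 𝕜 p S.r) (hp : p.Prime)
    (hex : ∀ B H : Subgroup A, Hyp p H → B ≤ H → Nat.card H ≠ Nat.card B →
      ∃ H1, Hyp p H1 ∧ B ≤ H1 ∧ H ≠ H1) {H B : Subgroup A} {k : ℕ} (hH : Hyp p H) (hBH : B ≤ H)
    (hk : Nat.card A = p ^ (k + 1) * Nat.card B) (hact : ∃ x y, S.r H x y ∧ x ≠ y)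
    (hperm : ∀ H', Hyp p H' → B ≤ H' → H' ≠ H → ∀ x y z, S.r H x y → S.r H' y z →
      ∃ y', S.r H' x y' ∧ S.r H y' z) :
    finrank 𝕜 (D 𝕜 p S.r H k B) ≤ 2 * finrank 𝕜 (T 𝕜 p S.r (k + 1) B) := by
  classical
  have hact' : ∀ x, ∃ y, y ≠ x ∧ S.r H x y := by
    rcases S.dich H hH with h | h
    · obtain ⟨x, y, h1, h2⟩ := hact
      exact absurd (h x y h1) h2
    · exact h
  have h2I := two_I (𝕜 := 𝕜) S hp hH hBH hk hact' hperm
  have hfD : Module.Finite 𝕜 (D 𝕜 p S.r H k B) := finite_D H k B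
  have hfT : Module.Finite 𝕜 (T 𝕜 p S.r (k + 1) B) := finite_T (k + 1) B
  have hID : I 𝕜 p S.r H k B ≤ D 𝕜 p S.r H k B := inf_le_left
  have hfI : Module.Finite 𝕜 (I 𝕜 p S.r H k B) :=
    Module.Finite.of_injective (Submodule.inclusion hID) (Submodule.inclusion_injective hID)
  -- `E` on `D`
  let f := (E (𝕜 := 𝕜) (A := A) (S.r H)).domRestrict (D 𝕜 p S.r H k B)
  have hf := LinearMap.finrank_range_add_finrank_ker f
  have hrange : LinearMap.range f ≤ I 𝕜 p S.r H k B := by
    rintro _ ⟨d, rfl⟩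
    rw [mem_I]
    refine ⟨?_, ?_⟩
    · have hd := mem_D.1 d.2
      rw [mem_D]
      refine ⟨?_, ?_, ?_⟩
      · change cs (S.r H) ((d : List (Subgroup A) → Ω → 𝕜) []) = 0
        rw [hd.1, map_zero]
      · intro X hX l
        change cs (S.r H) ((d : List (Subgroup A) → Ω → 𝕜) (X :: l)) = 0
        rw [hd.2.1 X hX l, map_zero]
      · intro X hX hXH
        refine T_map (r := S.r) (cs (S.r H)) k X ?_ (card_par hk hX)
          (fun l => (d : List (Subgroup A) → Ω → 𝕜) (X :: l)) (hd.2.2 X hX hXH)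
        intro H' hH' hXH' g hg
        have hne : H' ≠ H := by
          rintro rfl
          exact hXH hXH'
        have h0 : ∀ x y, S.r H x y → S.r H' x y → x = y := by
          intro x y h1 h2
          apply S.top
          have h3 := S.sup H H' x y h1 h2
          rwa [sup_top hp hH' (fun h => hne (Subgroup.eq_of_le_of_card_ge h ?_).symm)] at h3
          have h4 : p * Nat.card H = p * Nat.card H' := hH.symm.trans hH'
          exact (Nat.eq_of_mul_eq_mul_left hp.pos h4).symm.le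
        rw [← cs_comm (S.r H) (S.r H') g h0
          (hperm H' hH' ((mem_par.1 hX).1.trans hXH') hne), hg, map_zero]
    · intro l x y hxy
      exact cs_inv (S.r H) _ hxy
  -- the kernel
  let ρ : (List (Subgroup A) → Ω → 𝕜) →ₗ[𝕜] (List (Subgroup A) → Ω → 𝕜) :=
    { toFun := fun z l => match l with
        | [] => 0
        | X :: l => if X ∈ par p B ∧ ¬ X ≤ H then z (X :: l) else 0
      map_add' := fun a b => by
        funext l
        rcases l with _ | ⟨X, l⟩
        · change (0 : Ω → 𝕜) = 0 + 0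
          rw [add_zero]
        · change (if X ∈ par p B ∧ ¬ X ≤ H then (a + b) (X :: l) else 0) =
            (if X ∈ par p B ∧ ¬ X ≤ H then a (X :: l) else 0) +
              (if X ∈ par p B ∧ ¬ X ≤ H then b (X :: l) else 0)
          split <;> simp
      map_smul' := fun c a => by
        funext l
        rcases l with _ | ⟨X, l⟩
        · change (0 : Ω → 𝕜) = c • 0
          rw [smul_zero]
        · change (if X ∈ par p B ∧ ¬ X ≤ H then (c • a) (X :: l) else 0) =
            c • (if X ∈ par p B ∧ ¬ X ≤ H then a (X :: l) else 0)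
          split <;> simp }
  have hker : (LinearMap.ker f).map (D 𝕜 p S.r H k B).subtype ≤
      (T 𝕜 p S.r (k + 1) B).map ρ := by
    rintro _ ⟨d, hd, rfl⟩
    have hd' : E (S.r H) (d : List (Subgroup A) → Ω → 𝕜) = 0 := hd
    obtain ⟨z, hz, hzd⟩ := lift_ker hL hp hex hH k B hBH hk d d.2 hd'
    refine ⟨z, hz, ?_⟩
    funext l
    have hdD := mem_D.1 d.2
    rcases l with _ | ⟨X, l⟩
    · exact hdD.1.symm
    · change (if X ∈ par p B ∧ ¬ X ≤ H then z (X :: l) else 0) =
        (d : List (Subgroup A) → Ω → 𝕜) (X :: l)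
      by_cases hX : X ∈ par p B ∧ ¬ X ≤ H
      · rw [if_pos hX, hzd X hX.1 hX.2 l]
      · have h3 : X ∉ par p B ∨ X ≤ H := by tauto
        rw [if_neg hX, hdD.2.1 X h3 l]
  have h1 : finrank 𝕜 (LinearMap.ker f) ≤ finrank 𝕜 (T 𝕜 p S.r (k + 1) B) := by
    have e : finrank 𝕜 ((LinearMap.ker f).map (D 𝕜 p S.r H k B).subtype) =
        finrank 𝕜 (LinearMap.ker f) := Submodule.finrank_map_subtype_eq _ _
    rw [← e]
    have hfm : Module.Finite 𝕜 ((T 𝕜 p S.r (k + 1) B).map ρ) := inferInstance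
    exact (Submodule.finrank_mono hker).trans (Submodule.finrank_map_le ρ _)
  have h2 : finrank 𝕜 (LinearMap.range f) ≤ finrank 𝕜 (I 𝕜 p S.r H k B) :=
    Submodule.finrank_mono hrange
  omega

end Vale.Agent.P240.LT.H939
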