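import Vale.Agent.P240.R2.H121.Core
import Vale.Agent.P240.R2.H939.L3
import Vale.Agent.P240.R2.H939.Hyp

set_option linter.all false

namespace Vale.Agent.P240.LT.H939

open Vale.Agent.P240.LT Module

universe u v w

/-- **(L3)**; `hL` is `lift_of`. -/
theorem comm_case' {A : Type u} [Group A] [Finite A] {Ω : Type v} [Fintype Ω] {𝕜 : Type w}
    [Field 𝕜] {p : ℕ} (S : Sys p A Ω) (hL : Lift 𝕜 p S.r) (hp : p.Prime)
    (hn : ∀ X : Subgroup A, X.Normal) {H B : Subgroup A} {k : ℕ} (hH : Hyp p H) (hBH : B ≤ H)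
    (hk : Nat.card A = p ^ (k + 1) * Nat.card B) (hact : ∃ x y, S.r H x y ∧ x ≠ y)
    (hperm : ∀ H', Hyp p H' → B ≤ H' → H' ≠ H → ∀ x y z, S.r H x y → S.r H' y z →
      ∃ y', S.r H' x y' ∧ S.r H y' z) :
    finrank 𝕜 (D 𝕜 p S.r H k B) ≤ 2 * finrank 𝕜 (T 𝕜 p S.r (k + 1) B) := by
  obtain ⟨hc, he⟩ := elem_ab hp hn (fun K hK => hyp_inf S K hK)
  exact comm_case_of_lift S hL hp (fun B H hH hBH hne => exists_other hp hc he hBH hne) hH hBH hk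
    hact hperm

/-- **(L3)** -/
theorem comm_case {A : Type u} [Group A] [Finite A] {Ω : Type v} [Fintype Ω] {𝕜 : Type w}
    [Field 𝕜] {p : ℕ} (S : Sys p A Ω) (hp : p.Prime)
    (hn : ∀ X : Subgroup A, X.Normal) {H B : Subgroup A} {k : ℕ} (hH : Hyp p H) (hBH : B ≤ H)
    (hk : Nat.card A = p ^ (k + 1) * Nat.card B) (hact : ∃ x y, S.r H x y ∧ x ≠ y)
    (hperm : ∀ H', Hyp p H' → B ≤ H' → H' ≠ H → ∀ x y z, S.r H x y → S.r H' y z →
      ∃ y', S.r H' x y' ∧ S.r H y' z) :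
    finrank 𝕜 (D 𝕜 p S.r H k B) ≤ 2 * finrank 𝕜 (T 𝕜 p S.r (k + 1) B) :=
  comm_case' S (fun H H1 B k d hH hH1 hne hBH hBH1 hk hd hl =>
    lift_of hp hn hH hH1 hne k B d hBH hBH1 hk hd hl) hp hn hH hBH hk hact hperm

end Vale.Agent.P240.LT.H939
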