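import Vale.Agent.P240.R2.H612.Main
import Vale.Agent.P240.R2.H938.SysF
import Vale.Agent.P240.R2.H63.TopT

set_option linter.all false

/-!
P240, LEMMA T: `N` a `p'`-group (arbitrary), `F` elementary abelian, normalizing `N` and faithful on `N`:
`𝒜ₚ(N ⊔ F)` has a top cycle through `F`, over every field.
-/

namespace Vale.Agent.P240.LT

open Vale.Agent.P240.K

universe u v

theorem lemmaT {G : Type u} [Group G] {p : ℕ} {𝕜 : Type v} [Field 𝕜] [hp : Fact p.Prime]
    [Finite G] {F N : Subgroup G} (hF : F ∈ ApB p G) (hN : ¬ p ∣ Nat.card N)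
    (hn : ∀ x ∈ F, ∀ y ∈ N, x * y * x⁻¹ ∈ N) (hfaith : ∀ x ∈ F, (∀ y ∈ N, x * y = y * x) → x = 1) :
    ∃ (α : Ch 𝕜 (Subgroup G)) (φ : List (Subgroup G)), TopCycle 𝕜 p (N ⊔ F) F α φ := by
  classical
  have hc : ∀ x ∈ F, ∀ y ∈ F, x * y = y * x := by
    rcases hF with h | h
    · intro x hx y hy
      rw [h, Subgroup.mem_bot] at hx hy
      rw [hx, hy]
    · exact h.2.1
  have hq : ∀ x ∈ F, x ^ p = 1 := by
    rcases hF with h | h
    · intro x hx
      rw [h, Subgroup.mem_bot] at hx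
      rw [hx, one_pow]
    · exact h.2.2
  obtain ⟨k, hk⟩ : ∃ k, Nat.card F = p ^ k := by
    have h : IsPGroup p F := fun a => ⟨1, by
      rw [pow_one]
      exact Subtype.ext (hq a a.2)⟩
    exact IsPGroup.iff_card.1 h
  have hfin : Finite (Om F N) := inferInstance
  let _ : Fintype (Om F N) := Fintype.ofFinite _
  have hnorm : ∀ X : Subgroup F, X.Normal := fun X => ⟨fun a ha g => by
    have e : g * a * g⁻¹ = a := by
      apply Subtype.ext
      change (g : G) * a * (g : G)⁻¹ = a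
      rw [hc g g.2 a a.2, mul_assoc, mul_inv_cancel, mul_one]
    rw [e]
    exact ha⟩
  have : Nonempty (Om F N) := ⟨QuotientGroup.mk 1⟩
  obtain ⟨z, hz, hne⟩ := LT.main (𝕜 := ℚ) (sys hc hq hN hn hfaith) hp.out hnorm hk
  exact topCycle_of_T hF hN hn hk hz hne

end Vale.Agent.P240.LT
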