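import Vale.Agent.P240.R2.H121.Ineq
import Vale.Agent.P240.R2.H612.Num
import Vale.Agent.P240.R2.H939.L3b

set_option linter.all false

namespace Vale.Agent.P240.LT.H939

open Vale.Agent.P240.LT Module

universe u v w

/-- The top space is not zero. -/
theorem T_ne_zero {A : Type u} [Group A] [Finite A] {Ω : Type v} [Fintype Ω] {𝕜 : Type w}
    [Field 𝕜] {p : ℕ} (S : Sys p A Ω) (hp : p.Prime) (hn : ∀ X : Subgroup A, X.Normal) [Nonempty Ω]
    {n : ℕ} (hk : Nat.card A = p ^ n) : ∃ z ∈ T 𝕜 p S.r n ⊥, z ≠ 0 :=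
  main_of (𝕜 := 𝕜) S hp hn (fun hH hBH hk hact hperm => comm_case S hp hn hH hBH hk hact hperm) hk

end Vale.Agent.P240.LT.H939
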